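import Vale.Agent.Lib.P126.Defs

namespace Vale.Agent.Lib.P126

open scoped Pointwise

variable {n : ℕ}

/-- weighted cross-polytope -/
def cp (w : Fin n → ℝ) (t : ℝ) : Set (Fin n → ℝ) := {y | ∑ i, w i * |y i| ≤ t}

theorem polar_box (r : Fin n → ℝ) (hr : ∀ i, 0 < r i) : polar (box r) = cp r 1 := by
  ext y
  constructor
  · intro hy
    have h := hy (fun i => if 0 ≤ y i then r i else -r i) (by
      intro i
      show |if 0 ≤ y i then r i else -r i| ≤ r i
      split_ifs
      · rw [abs_of_pos (hr i)]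
      · rw [abs_neg, abs_of_pos (hr i)])
    show ∑ i, r i * |y i| ≤ 1
    have e : ∀ i, (if 0 ≤ y i then r i else -r i) * y i = r i * |y i| := by
      intro i
      split_ifs with h0
      · rw [abs_of_nonneg h0]
      · rw [abs_of_neg (not_le.1 h0)]; ring
    simpa [e] using h
  · intro hy x hx
    have hy' : ∑ i, r i * |y i| ≤ 1 := hy
    calc ∑ i, x i * y i ≤ ∑ i, r i * |y i| := by
          apply Finset.sum_le_sum
          intro i _
          calc x i * y i ≤ |x i * y i| := le_abs_self _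
            _ = |x i| * |y i| := abs_mul _ _
            _ ≤ r i * |y i| := mul_le_mul_of_nonneg_right (hx i) (abs_nonneg _)
      _ ≤ 1 := hy'

theorem smul_cp (w : Fin n → ℝ) (t : ℝ) (ht : 0 < t) : t • cp w 1 = cp w t := by
  ext y
  constructor
  · rintro ⟨z, hz, rfl⟩
    have hz' : ∑ i, w i * |z i| ≤ 1 := hz
    show ∑ i, w i * |(t • z) i| ≤ t
    have e : ∀ i, w i * |(t • z) i| = t * (w i * |z i|) := by
      intro i
      simp only [Pi.smul_apply, smul_eq_mul, abs_mul, abs_of_pos ht]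
      ring
    simp only [e, ← Finset.mul_sum]
    calc t * ∑ i, w i * |z i| ≤ t * 1 := mul_le_mul_of_nonneg_left hz' ht.le
      _ = t := mul_one t
  · intro hy
    have hy' : ∑ i, w i * |y i| ≤ t := hy
    refine ⟨t⁻¹ • y, ?_, ?_⟩
    · show ∑ i, w i * |(t⁻¹ • y) i| ≤ 1
      have e : ∀ i, w i * |(t⁻¹ • y) i| = t⁻¹ * (w i * |y i|) := by
        intro i
        simp only [Pi.smul_apply, smul_eq_mul, abs_mul, abs_of_pos (inv_pos.2 ht)]
        ring
      simp only [e, ← Finset.mul_sum]
      calc t⁻¹ * ∑ i, w i * |y i| ≤ t⁻¹ * t := mul_le_mul_of_nonneg_left hy' (inv_pos.2 ht).le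
        _ = 1 := inv_mul_cancel₀ ht.ne'
    · show t • t⁻¹ • y = y
      rw [smul_smul, mul_inv_cancel₀ ht.ne', one_smul]

end Vale.Agent.Lib.P126

namespace Vale.Agent.Lib.P126

open scoped Pointwise

variable {n : ℕ}

theorem exists_slot (u : ℝ) (m : ℕ) (hm : 1 ≤ m) (h0 : 0 ≤ u) (h1 : u ≤ m) :
    ∃ j : ℕ, j < m ∧ (j : ℝ) ≤ u ∧ u ≤ j + 1 := by
  refine ⟨min ⌊u⌋₊ (m - 1), ?_, ?_, ?_⟩
  · have : min ⌊u⌋₊ (m - 1) ≤ m - 1 := min_le_right _ _
    omega
  · calc ((min ⌊u⌋₊ (m - 1) : ℕ) : ℝ) ≤ (⌊u⌋₊ : ℝ) := by exact_mod_cast min_le_left _ _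
      _ ≤ u := Nat.floor_le h0
  · by_cases h : ⌊u⌋₊ ≤ m - 1
    · rw [min_eq_left h]
      exact (Nat.lt_floor_add_one u).le
    · have h' : m - 1 ≤ ⌊u⌋₊ := by omega
      rw [min_eq_right h']
      have : ((m - 1 : ℕ) : ℝ) + 1 = m := by
        have : m - 1 + 1 = m := by omega
        exact_mod_cast this
      rw [this]
      exact h1

theorem box_covered (r s : Fin n → ℝ) (hr : ∀ i, 0 < r i) (hs : ∀ i, 0 < s i) :
    CoveredBy (box r) (box s) (∏ i, ⌈r i / s i⌉₊) := by
  classical
  refine ⟨(Fintype.piFinset (fun i => Finset.range ⌈r i / s i⌉₊)).image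
    (fun j => fun i => -r i + s i * (2 * (j i : ℝ) + 1)), ?_, ?_⟩
  · refine le_trans Finset.card_image_le ?_
    rw [Fintype.card_piFinset]
    simp
  · intro x hx
    have key : ∀ i, ∃ j : ℕ, j < ⌈r i / s i⌉₊ ∧ (j : ℝ) ≤ (x i + r i) / (2 * s i) ∧
        (x i + r i) / (2 * s i) ≤ j + 1 := by
      intro i
      have hxi := abs_le.1 (hx i)
      apply exists_slot
      · exact Nat.ceil_pos.2 (div_pos (hr i) (hs i))
      · exact div_nonneg (by linarith) (by linarith [hs i])
      · calc (x i + r i) / (2 * s i) ≤ (2 * r i) / (2 * s i) := by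
              apply div_le_div_of_nonneg_right _ (by linarith [hs i])
              linarith
          _ = r i / s i := by
              have := (hs i).ne'
              field_simp
          _ ≤ ⌈r i / s i⌉₊ := Nat.le_ceil _
    choose j hj using key
    simp only [Set.mem_iUnion, Finset.mem_image, Fintype.mem_piFinset, Finset.mem_range,
      exists_prop]
    refine ⟨fun i => -r i + s i * (2 * (j i : ℝ) + 1), ⟨j, fun i => (hj i).1, rfl⟩, ?_⟩
    refine ⟨fun i => x i - (-r i + s i * (2 * (j i : ℝ) + 1)), ?_, ?_⟩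
    · intro i
      have h1 := (hj i).2.1
      have h2 := (hj i).2.2
      have hs2 : 0 < 2 * s i := by linarith [hs i]
      rw [le_div_iff₀ hs2] at h1
      rw [div_le_iff₀ hs2] at h2
      show |x i - (-r i + s i * (2 * (j i : ℝ) + 1))| ≤ s i
      rw [abs_le]
      constructor <;> nlinarith
    · funext i
      show -r i + s i * (2 * (j i : ℝ) + 1) + (x i - (-r i + s i * (2 * (j i : ℝ) + 1))) = x i
      ring

theorem box_lower (r s : Fin n → ℝ) (hr : ∀ i, 0 < r i) (hs : ∀ i, 0 < s i) (k : ℕ)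
    (h : CoveredBy (box r) (box s) k) : ∏ i, ⌈r i / s i⌉₊ ≤ k := by
  classical
  obtain ⟨c, hc, hcov⟩ := h
  set m : Fin n → ℕ := fun i => ⌈r i / s i⌉₊ with hm
  set g : Fin n → ℝ := fun i => 2 * r i / ((m i : ℝ) - 1) with hg
  set p : (Fin n → ℕ) → (Fin n → ℝ) := fun j i => -r i + j i * g i with hp
  set T := Fintype.piFinset (fun i => Finset.range (m i)) with hT
  have mpos : ∀ i, 1 ≤ m i := fun i => Nat.ceil_pos.2 (div_pos (hr i) (hs i))
  have mlt : ∀ i, ((m i : ℝ) - 1) * s i < r i := by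
    intro i
    have h1 : (m i : ℝ) < r i / s i + 1 := Nat.ceil_lt_add_one (div_pos (hr i) (hs i)).le
    have h2 : (m i : ℝ) - 1 < r i / s i := by linarith
    rwa [lt_div_iff₀ (hs i)] at h2
  have pmem : ∀ j ∈ T, p j ∈ box r := by
    intro j hj i
    have hji : j i < m i := by
      have := Fintype.mem_piFinset.1 hj i
      exact Finset.mem_range.1 this
    show |-r i + j i * g i| ≤ r i
    by_cases h1 : m i = 1
    · have : j i = 0 := by omega
      simp [this, abs_of_pos (hr i)]
    · have h2 : 2 ≤ m i := by have := mpos i; omega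
      have hpos : (0 : ℝ) < (m i : ℝ) - 1 := by
        have : (2 : ℝ) ≤ m i := by exact_mod_cast h2
        linarith
      have hjle : (j i : ℝ) ≤ (m i : ℝ) - 1 := by
        have : j i + 1 ≤ m i := hji
        have : ((j i + 1 : ℕ) : ℝ) ≤ m i := by exact_mod_cast this
        push_cast at this
        linarith
      have hg0 : 0 ≤ g i := div_nonneg (by linarith [hr i]) hpos.le
      have hgm : ((m i : ℝ) - 1) * g i = 2 * r i := by
        show ((m i : ℝ) - 1) * (2 * r i / ((m i : ℝ) - 1)) = 2 * r i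
        field_simp
      have h3 : (j i : ℝ) * g i ≤ 2 * r i := by
        calc (j i : ℝ) * g i ≤ ((m i : ℝ) - 1) * g i := mul_le_mul_of_nonneg_right hjle hg0
          _ = 2 * r i := hgm
      have h4 : 0 ≤ (j i : ℝ) * g i := mul_nonneg (Nat.cast_nonneg _) hg0
      rw [abs_le]
      constructor <;> linarith
  have key : ∀ j ∈ T, ∃ x, x ∈ c ∧ ∀ i, |p j i - x i| ≤ s i := by
    intro j hj
    have := hcov (pmem j hj)
    simp only [Set.mem_iUnion, exists_prop] at this
    obtain ⟨x, hx, z, hz, hxz⟩ := this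
    refine ⟨x, hx, fun i => ?_⟩
    have : p j i - x i = z i := by
      have := congrFun hxz i
      simp only [Pi.add_apply] at this
      linarith
    rw [this]
    exact hz i
  choose! f hf using key
  have hinj : Set.InjOn f T := by
    intro j hj j' hj' hff
    funext i
    by_contra hne
    have hji : j i < m i := Finset.mem_range.1 (Fintype.mem_piFinset.1 hj i)
    have hji' : j' i < m i := Finset.mem_range.1 (Fintype.mem_piFinset.1 hj' i)
    have h2 : 2 ≤ m i := by omega
    have hpos : (0 : ℝ) < (m i : ℝ) - 1 := by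
      have : (2 : ℝ) ≤ m i := by exact_mod_cast h2
      linarith
    have hgm : ((m i : ℝ) - 1) * g i = 2 * r i := by
      show ((m i : ℝ) - 1) * (2 * r i / ((m i : ℝ) - 1)) = 2 * r i
      field_simp
    have hg2 : 2 * s i < g i := by
      have := mlt i
      by_contra hcon
      have hcon' : g i ≤ 2 * s i := not_lt.1 hcon
      have : ((m i : ℝ) - 1) * g i ≤ ((m i : ℝ) - 1) * (2 * s i) :=
        mul_le_mul_of_nonneg_left hcon' hpos.le
      nlinarith
    have ha := (hf j hj).2 i
    have hb := (hf j' hj').2 i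
    rw [hff] at ha
    have hd : |p j i - p j' i| ≤ 2 * s i := by
      have : p j i - p j' i = (p j i - f j' i) - (p j' i - f j' i) := by ring
      rw [this]
      calc |(p j i - f j' i) - (p j' i - f j' i)| ≤ |p j i - f j' i| + |p j' i - f j' i| :=
            abs_sub _ _
        _ ≤ s i + s i := add_le_add ha hb
        _ = 2 * s i := by ring
    have he : p j i - p j' i = ((j i : ℝ) - (j' i : ℝ)) * g i := by
      show (-r i + j i * g i) - (-r i + j' i * g i) = ((j i : ℝ) - (j' i : ℝ)) * g i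
      ring
    have hone : (1 : ℝ) ≤ |(j i : ℝ) - (j' i : ℝ)| := by
      have h1 : (j i : ℤ) - (j' i : ℤ) ≠ 0 := by
        intro h0
        apply hne
        omega
      have h2 : (1 : ℤ) ≤ |(j i : ℤ) - (j' i : ℤ)| := Int.one_le_abs h1
      have h3 : ((1 : ℤ) : ℝ) ≤ ((|(j i : ℤ) - (j' i : ℤ)| : ℤ) : ℝ) := by exact_mod_cast h2
      simpa using h3
    rw [he, abs_mul] at hd
    have hg0 : 0 < g i := by linarith [hs i]
    rw [abs_of_pos hg0] at hd
    have : g i ≤ |(j i : ℝ) - (j' i : ℝ)| * g i := by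
      calc g i = 1 * g i := (one_mul _).symm
        _ ≤ |(j i : ℝ) - (j' i : ℝ)| * g i := mul_le_mul_of_nonneg_right hone hg0.le
    linarith
  have hcard : T.card ≤ c.card :=
    Finset.card_le_card_of_injOn f (fun j hj => (hf j hj).1) hinj
  have hTc : T.card = ∏ i, m i := by
    rw [hT, Fintype.card_piFinset]
    simp
  calc ∏ i, ⌈r i / s i⌉₊ = T.card := hTc.symm
    _ ≤ c.card := hcard
    _ ≤ k := hc

end Vale.Agent.Lib.P126
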