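import Mathlib

namespace Vale.Agent.Lib.P126

open scoped Pointwise

/-- The polar of a set of `ℝ^n` with respect to the standard inner product. -/
def polar {n : ℕ} (K : Set (Fin n → ℝ)) : Set (Fin n → ℝ) :=
  {y | ∀ x ∈ K, ∑ i, x i * y i ≤ 1}

/-- `A` is contained in a union of at most `k` translates of `B`. -/
def CoveredBy {n : ℕ} (A B : Set (Fin n → ℝ)) (k : ℕ) : Prop :=
  ∃ c : Finset (Fin n → ℝ), c.card ≤ k ∧ A ⊆ ⋃ x ∈ c, (fun y => x + y) '' B

/-- The covering number: the least number of translates of `B` whose union contains `A`. -/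
noncomputable def covNum {n : ℕ} (A B : Set (Fin n → ℝ)) : ℕ :=
  sInf {k | CoveredBy A B k}

/-- The axis-parallel box with half-sides `r i`. -/
def box {n : ℕ} (r : Fin n → ℝ) : Set (Fin n → ℝ) :=
  {x | ∀ i, |x i| ≤ r i}

end Vale.Agent.Lib.P126
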