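import Vale.Agent.Lib.P126.Pack

namespace Vale.Agent.Lib.P126

open scoped Pointwise

variable {n : ℕ}

theorem dual_upper (r s : Fin n → ℝ) (hr : ∀ i, 0 < r i) (hs : ∀ i, 0 < s i) :
    CoveredBy (cp s 1) (cp r 4) ((∏ i, ⌈r i / s i⌉₊) ^ 2) := by
  classical
  set S : Finset (Fin n) := Finset.univ.filter (fun i => s i < r i) with hS
  set m : Fin n → ℕ := fun i => ⌈r i / s i⌉₊ with hm
  have hSmem : ∀ i, i ∈ S ↔ s i < r i := by
    intro i
    simp [hS]
  obtain ⟨c, hcard, hzero, hcov⟩ := packing S s r hs hr 1 one_pos (by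
    intro i hi
    rw [one_mul]
    exact ((hSmem i).1 hi).le)
  have F2 : ∀ i ∈ S, (1 + 1) * r i / s i ≤ ((m i : ℝ)) ^ 2 := by
    intro i hi
    have h1 : 1 < r i / s i := (one_lt_div (hs i)).2 ((hSmem i).1 hi)
    have h2 : r i / s i ≤ m i := Nat.le_ceil _
    have h3 : (2 : ℝ) ≤ m i := by
      have : 1 < m i := Nat.lt_ceil.2 (by exact_mod_cast h1)
      exact_mod_cast this
    have e : (1 + 1) * r i / s i = 2 * (r i / s i) := by ring
    rw [e]
    nlinarith
  have F3 : ∀ i, i ∉ S → m i = 1 := by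
    intro i hi
    have h1 : r i ≤ s i := not_lt.1 (fun h => hi ((hSmem i).2 h))
    have h2 : r i / s i ≤ 1 := (div_le_one (hs i)).2 h1
    have h3 : m i ≤ 1 := Nat.ceil_le.2 (by exact_mod_cast h2)
    have h4 : 0 < m i := Nat.ceil_pos.2 (div_pos (hr i) (hs i))
    omega
  have F4 : ∏ i ∈ S, m i = ∏ i, m i :=
    Finset.prod_subset (Finset.subset_univ S) (fun i _ hi => F3 i hi)
  refine ⟨c, ?_, ?_⟩
  · have h1 : (c.card : ℝ) ≤ ∏ i ∈ S, ((m i : ℝ)) ^ 2 :=
      le_trans hcard (Finset.prod_le_prod (fun i hi => by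
        have := (hSmem i).1 hi
        have := hr i
        have := hs i
        positivity) F2)
    have h2 : ∏ i ∈ S, ((m i : ℝ)) ^ 2 = (((∏ i, m i) ^ 2 : ℕ) : ℝ) := by
      rw [Finset.prod_pow, ← F4]
      push_cast
      rfl
    rw [h2] at h1
    exact_mod_cast h1
  · intro y hy
    have hy' : ∑ i, s i * |y i| ≤ 1 := hy
    have hnn : ∀ i ∈ (Finset.univ : Finset (Fin n)), 0 ≤ s i * |y i| :=
      fun i _ => mul_nonneg (hs i).le (abs_nonneg _)
    have hyS : ∑ i ∈ S, s i * |y i| ≤ 1 :=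
      le_trans (Finset.sum_le_sum_of_subset_of_nonneg (Finset.subset_univ S)
        (fun i hi _ => hnn i hi)) hy'
    obtain ⟨x, hx, hxy⟩ := hcov y hyS
    simp only [Set.mem_iUnion, exists_prop]
    refine ⟨x, hx, y - x, ?_, by simp⟩
    show ∑ i, r i * |(y - x) i| ≤ 4
    rw [← Finset.sum_add_sum_compl S]
    have hc1 : ∑ i ∈ Sᶜ, r i * |(y - x) i| ≤ ∑ i ∈ Sᶜ, s i * |y i| := by
      apply Finset.sum_le_sum
      intro i hi
      have hi' : i ∉ S := Finset.mem_compl.1 hi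
      have h1 : r i ≤ s i := not_lt.1 (fun h => hi' ((hSmem i).2 h))
      have : (y - x) i = y i := by
        show y i - x i = y i
        rw [hzero x hx i hi', sub_zero]
      rw [this]
      exact mul_le_mul_of_nonneg_right h1 (abs_nonneg _)
    have hc2 : ∑ i ∈ Sᶜ, s i * |y i| ≤ 1 :=
      le_trans (Finset.sum_le_sum_of_subset_of_nonneg (Finset.subset_univ _)
        (fun i hi _ => hnn i hi)) hy'
    have hc3 : ∑ i ∈ S, r i * |(y - x) i| ≤ 2 := hxy
    linarith

theorem dual_finite (r s : Fin n → ℝ) (hr : ∀ i, 0 < r i) (hs : ∀ i, 0 < s i) :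
    ∃ k, CoveredBy (cp s 1) (cp r (1 / 4)) k := by
  classical
  have hr8 : ∀ i, 0 < 8 * r i := fun i => by have := hr i; positivity
  have hτ : 0 < 1 + ∑ i, s i / (8 * r i) := by
    have : 0 ≤ ∑ i, s i / (8 * r i) :=
      Finset.sum_nonneg (fun i _ => (div_pos (hs i) (hr8 i)).le)
    linarith
  obtain ⟨c, -, -, hcov⟩ := packing Finset.univ s (fun i => 8 * r i) hs hr8
    (1 + ∑ i, s i / (8 * r i)) hτ (by
      intro i _
      have h1 : s i / (8 * r i) ≤ ∑ j, s j / (8 * r j) :=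
        Finset.single_le_sum (f := fun j => s j / (8 * r j))
          (fun j _ => (div_pos (hs j) (hr8 j)).le) (Finset.mem_univ i)
      have h2 : s i = s i / (8 * r i) * (8 * r i) :=
        (div_mul_cancel₀ _ (hr8 i).ne').symm
      have h3 : s i / (8 * r i) * (8 * r i) ≤ (1 + ∑ j, s j / (8 * r j)) * (8 * r i) :=
        mul_le_mul_of_nonneg_right (by linarith) (hr8 i).le
      linarith)
  refine ⟨c.card, c, le_refl _, ?_⟩
  intro y hy
  obtain ⟨x, hx, hxy⟩ := hcov y hy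
  simp only [Set.mem_iUnion, exists_prop]
  refine ⟨x, hx, y - x, ?_, by simp⟩
  show ∑ i, r i * |(y - x) i| ≤ 1 / 4
  have e : ∑ i, 8 * r i * |y i - x i| = 8 * ∑ i, r i * |(y - x) i| := by
    rw [Finset.mul_sum]
    apply Finset.sum_congr rfl
    intro i _
    show 8 * r i * |y i - x i| = 8 * (r i * |y i - x i|)
    ring
  rw [e] at hxy
  linarith

theorem dual_lower (r s : Fin n → ℝ) (hr : ∀ i, 0 < r i) (hs : ∀ i, 0 < s i) (k : ℕ)
    (h : CoveredBy (cp s 1) (cp r (1 / 4)) k) : ∏ i, ⌈r i / s i⌉₊ ≤ k := by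
  classical
  obtain ⟨c, hc, hcov⟩ := h
  set S : Finset (Fin n) := Finset.univ.filter (fun i => s i < r i) with hS
  set m : Fin n → ℕ := fun i => ⌈r i / s i⌉₊ with hm
  have hSmem : ∀ i, i ∈ S ↔ s i < r i := by
    intro i
    simp [hS]
  have F1 : ∀ i ∈ S, (m i : ℝ) ≤ 2 * r i / s i := by
    intro i hi
    have h1 : 1 < r i / s i := (one_lt_div (hs i)).2 ((hSmem i).1 hi)
    have h2 : (m i : ℝ) < r i / s i + 1 := Nat.ceil_lt_add_one (div_pos (hr i) (hs i)).le
    have e : 2 * r i / s i = 2 * (r i / s i) := by ring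
    rw [e]
    linarith
  have F3 : ∀ i, i ∉ S → m i = 1 := by
    intro i hi
    have h1 : r i ≤ s i := not_lt.1 (fun h => hi ((hSmem i).2 h))
    have h2 : r i / s i ≤ 1 := (div_le_one (hs i)).2 h1
    have h3 : m i ≤ 1 := Nat.ceil_le.2 (by exact_mod_cast h2)
    have h4 : 0 < m i := Nat.ceil_pos.2 (div_pos (hr i) (hs i))
    omega
  have F4 : ∏ i ∈ S, m i = ∏ i, m i :=
    Finset.prod_subset (Finset.subset_univ S) (fun i _ hi => F3 i hi)
  set d : Fin n → ℝ := fun i => 1 / (2 * ((n : ℝ) + 1) * s i) with hd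
  have hdpos : ∀ i, 0 < d i := fun i => by
    have := hs i
    show 0 < 1 / (2 * ((n : ℝ) + 1) * s i)
    positivity
  have hsub : Z S (fun i => 2 * s i) d ⊆
      ⋃ x ∈ c, (fun y => x + y) '' {y : Fin n → ℝ | ∑ i ∈ S, r i * |y i| ≤ 1 / 4} := by
    intro y hy
    have hy1 : ∑ i ∈ S, 2 * s i * |y i| ≤ 1 := hy.1
    have hyS : ∑ i ∈ S, s i * |y i| ≤ 1 / 2 := by
      have e : ∑ i ∈ S, 2 * s i * |y i| = 2 * ∑ i ∈ S, s i * |y i| := by
        rw [Finset.mul_sum]
        apply Finset.sum_congr rfl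
        intro i _
        ring
      rw [e] at hy1
      linarith
    have hyc : ∑ i ∈ Sᶜ, s i * |y i| ≤ 1 / 2 := by
      calc ∑ i ∈ Sᶜ, s i * |y i| ≤ ∑ _i ∈ Sᶜ, 1 / (2 * ((n : ℝ) + 1)) := by
            apply Finset.sum_le_sum
            intro i hi
            have h1 := hy.2 i (Finset.mem_compl.1 hi)
            have h2 : s i * |y i| ≤ s i * d i := mul_le_mul_of_nonneg_left h1 (hs i).le
            have h3 : s i * d i = 1 / (2 * ((n : ℝ) + 1)) := by
              show s i * (1 / (2 * ((n : ℝ) + 1) * s i)) = 1 / (2 * ((n : ℝ) + 1))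
              have := (hs i).ne'
              field_simp
            linarith
        _ = (Sᶜ).card * (1 / (2 * ((n : ℝ) + 1))) := by rw [Finset.sum_const, nsmul_eq_mul]
        _ ≤ n * (1 / (2 * ((n : ℝ) + 1))) := by
            apply mul_le_mul_of_nonneg_right _ (by positivity)
            have : (Sᶜ).card ≤ n := by
              have := Finset.card_le_univ (Sᶜ)
              simpa using this
            exact_mod_cast this
        _ ≤ 1 / 2 := by
            rw [mul_one_div, div_le_iff₀ (by positivity)]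
            have : (0 : ℝ) ≤ n := Nat.cast_nonneg n
            linarith
    have hycp : y ∈ cp s 1 := by
      show ∑ i, s i * |y i| ≤ 1
      rw [← Finset.sum_add_sum_compl S]
      linarith
    have := hcov hycp
    simp only [Set.mem_iUnion, exists_prop] at this
    obtain ⟨x, hx, z, hz, rfl⟩ := this
    simp only [Set.mem_iUnion, exists_prop]
    refine ⟨x, hx, z, ?_, rfl⟩
    have hz' : ∑ i, r i * |z i| ≤ 1 / 4 := hz
    exact le_trans (Finset.sum_le_sum_of_subset_of_nonneg (Finset.subset_univ S)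
      (fun i _ _ => mul_nonneg (hr i).le (abs_nonneg _))) hz'
  have hvl := vol_lower S s r d hs hr hdpos c hsub
  have h1 : ((∏ i, m i : ℕ) : ℝ) ≤ ∏ i ∈ S, (2 * r i / s i) := by
    rw [← F4]
    push_cast
    exact Finset.prod_le_prod (fun i _ => Nat.cast_nonneg _) F1
  have h2 : ((∏ i, m i : ℕ) : ℝ) ≤ (c.card : ℝ) := le_trans h1 hvl
  have h3 : ∏ i, m i ≤ c.card := by exact_mod_cast h2
  exact le_trans h3 hc

theorem main (n : ℕ) (r s : Fin n → ℝ) (hr : ∀ i, 0 < r i) (hs : ∀ i, 0 < s i) :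
    (∃ k, CoveredBy (box r) (box s) k) ∧
    (∃ k, CoveredBy (polar (box s)) ((4 : ℝ) • polar (box r)) k) ∧
    (∃ k, CoveredBy (polar (box s)) ((1 / 4 : ℝ) • polar (box r)) k) ∧
    (1 / 2) * Real.log (covNum (polar (box s)) ((4 : ℝ) • polar (box r)))
      ≤ Real.log (covNum (box r) (box s)) ∧
    Real.log (covNum (box r) (box s))
      ≤ 2 * Real.log (covNum (polar (box s)) ((1 / 4 : ℝ) • polar (box r))) := by
  rw [polar_box r hr, polar_box s hs, smul_cp r 4 (by norm_num), smul_cp r (1 / 4) (by norm_num)]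
  set Pn : ℕ := ∏ i, ⌈r i / s i⌉₊ with hPn
  have hA : CoveredBy (box r) (box s) Pn := box_covered r s hr hs
  have hB := box_lower r s hr hs
  have hD : CoveredBy (cp s 1) (cp r 4) (Pn ^ 2) := dual_upper r s hr hs
  obtain ⟨k3, hk3⟩ := dual_finite r s hr hs
  have hC := dual_lower r s hr hs
  have hPpos : 0 < Pn := Finset.prod_pos (fun i _ => Nat.ceil_pos.2 (div_pos (hr i) (hs i)))
  have hN1 : covNum (box r) (box s) = Pn := by
    apply le_antisymm
    · exact Nat.sInf_le hA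
    · exact hB _ (Nat.sInf_mem (s := {k | CoveredBy (box r) (box s) k}) ⟨Pn, hA⟩)
  have hN2 : covNum (cp s 1) (cp r 4) ≤ Pn ^ 2 := Nat.sInf_le hD
  have hN3 : Pn ≤ covNum (cp s 1) (cp r (1 / 4)) :=
    hC _ (Nat.sInf_mem (s := {k | CoveredBy (cp s 1) (cp r (1 / 4)) k}) ⟨k3, hk3⟩)
  have hP1 : (1 : ℝ) ≤ Pn := by exact_mod_cast hPpos
  have hlogP : 0 ≤ Real.log Pn := Real.log_nonneg hP1
  refine ⟨⟨Pn, hA⟩, ⟨Pn ^ 2, hD⟩, ⟨k3, hk3⟩, ?_, ?_⟩
  · rw [hN1]
    by_cases h0 : covNum (cp s 1) (cp r 4) = 0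
    · rw [h0]
      simp only [Nat.cast_zero, Real.log_zero, mul_zero]
      exact hlogP
    · have hpos : (0 : ℝ) < covNum (cp s 1) (cp r 4) := by
        exact_mod_cast Nat.pos_of_ne_zero h0
      have hle : ((covNum (cp s 1) (cp r 4) : ℕ) : ℝ) ≤ (Pn : ℝ) ^ 2 := by exact_mod_cast hN2
      have h1 := Real.log_le_log hpos hle
      rw [Real.log_pow] at h1
      push_cast at h1
      linarith
  · rw [hN1]
    have hle : (Pn : ℝ) ≤ covNum (cp s 1) (cp r (1 / 4)) := by exact_mod_cast hN3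
    have h1 := Real.log_le_log (by linarith) hle
    linarith

end Vale.Agent.Lib.P126
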