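import Vale.Agent.Lib.P126.Vol

namespace Vale.Agent.Lib.P126

open MeasureTheory

variable {n : ℕ}

theorem ofReal_cancel (β : ENNReal) (hβ0 : β ≠ 0) (hβt : β ≠ ⊤) (k : ℕ) (E1 E2 : ℝ)
    (hE2 : 0 ≤ E2)
    (h : ENNReal.ofReal E1 * β ≤ (k : ENNReal) * (ENNReal.ofReal E2 * β)) :
    E1 ≤ k * E2 := by
  rw [← mul_assoc] at h
  have h2 := (ENNReal.mul_le_mul_iff_left hβ0 hβt).1 h
  have h3 : (k : ENNReal) * ENNReal.ofReal E2 = ENNReal.ofReal (k * E2) := by
    rw [ENNReal.ofReal_mul (Nat.cast_nonneg k), ENNReal.ofReal_natCast]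
  rw [h3] at h2
  exact (ENNReal.ofReal_le_ofReal_iff (mul_nonneg (Nat.cast_nonneg k) hE2)).1 h2

theorem ofReal_cancel' (β : ENNReal) (hβ0 : β ≠ 0) (hβt : β ≠ ⊤) (k : ℕ) (E1 E2 : ℝ)
    (_hE1 : 0 ≤ E1) (hE2 : 0 ≤ E2)
    (h : (k : ENNReal) * (ENNReal.ofReal E1 * β) ≤ ENNReal.ofReal E2 * β) :
    k * E1 ≤ E2 := by
  rw [← mul_assoc] at h
  have h2 := (ENNReal.mul_le_mul_iff_left hβ0 hβt).1 h
  have h3 : (k : ENNReal) * ENNReal.ofReal E1 = ENNReal.ofReal (k * E1) := by
    rw [ENNReal.ofReal_mul (Nat.cast_nonneg k), ENNReal.ofReal_natCast]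
  rw [h3] at h2
  exact (ENNReal.ofReal_le_ofReal_iff hE2).1 h2

theorem vol_lower (S : Finset (Fin n)) (s r d : Fin n → ℝ) (hs : ∀ i, 0 < s i)
    (hr : ∀ i, 0 < r i) (hd : ∀ i, 0 < d i) (c : Finset (Fin n → ℝ))
    (hcov : Z S (fun i => 2 * s i) d ⊆
      ⋃ x ∈ c, (fun y => x + y) '' {y : Fin n → ℝ | ∑ i ∈ S, r i * |y i| ≤ 1 / 4}) :
    ∏ i ∈ S, (2 * r i / s i) ≤ (c.card : ℝ) := by
  classical
  have hsub : Z S (fun i => 2 * s i) d ⊆
      ⋃ x ∈ c, (fun y => (fun i => if i ∈ S then x i else 0) + y) ''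
        Z S (fun i => 4 * r i) d := by
    intro y hy
    have := hcov hy
    simp only [Set.mem_iUnion, exists_prop] at this
    obtain ⟨x, hx, z, hz, rfl⟩ := this
    simp only [Set.mem_iUnion, exists_prop]
    refine ⟨x, hx, fun i => if i ∈ S then z i else x i + z i, ⟨?_, ?_⟩, ?_⟩
    · have e : ∀ i ∈ S, 4 * r i * |if i ∈ S then z i else x i + z i| = 4 * (r i * |z i|) := by
        intro i hi
        rw [if_pos hi]
        ring
      rw [Finset.sum_congr rfl e, ← Finset.mul_sum]
      have hz' : ∑ i ∈ S, r i * |z i| ≤ 1 / 4 := hz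
      linarith
    · intro i hi
      show |if i ∈ S then z i else x i + z i| ≤ d i
      rw [if_neg hi]
      exact hy.2 i hi
    · funext i
      by_cases hi : i ∈ S <;> simp [hi]
  have hvol : volume (Z S (fun i => 2 * s i) d) ≤
      (c.card : ENNReal) * volume (Z S (fun i => 4 * r i) d) := by
    calc volume (Z S (fun i => 2 * s i) d)
        ≤ volume (⋃ x ∈ c, (fun y => (fun i => if i ∈ S then x i else 0) + y) ''
            Z S (fun i => 4 * r i) d) := measure_mono hsub
      _ ≤ ∑ x ∈ c, volume ((fun y => (fun i => if i ∈ S then x i else 0) + y) ''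
            Z S (fun i => 4 * r i) d) := measure_biUnion_finset_le c _
      _ = ∑ _x ∈ c, volume (Z S (fun i => 4 * r i) d) := by simp only [vol_translate]
      _ = (c.card : ENNReal) * volume (Z S (fun i => 4 * r i) d) := by
          rw [Finset.sum_const, nsmul_eq_mul]
  have hw1 : ∀ i, 0 < 2 * s i := fun i => by have := hs i; positivity
  have hw2 : ∀ i, 0 < 4 * r i := fun i => by have := hr i; positivity
  rw [vol_Z S _ d hw1 hd, vol_Z S _ d hw2 hd] at hvol
  have hE2 : 0 < ∏ i, ev S (fun i => 4 * r i) d i :=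
    Finset.prod_pos (fun i _ => ev_pos S _ d hw2 hd i)
  have h3 := ofReal_cancel _ (beta_ne_zero S) (beta_ne_top S) _ _ _ hE2.le hvol
  have hq : ∀ i, ev S (fun i => 2 * s i) d i =
      (if i ∈ S then 2 * r i / s i else 1) * ev S (fun i => 4 * r i) d i := by
    intro i
    unfold ev
    by_cases hi : i ∈ S
    · simp only [hi, if_true]
      have := (hs i).ne'
      have := (hr i).ne'
      field_simp
      ring
    · simp only [hi, if_false, one_mul]
  rw [prod_ratio S _ _ _ hq] at h3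
  exact le_of_mul_le_mul_right h3 hE2

theorem packing (S : Finset (Fin n)) (s r : Fin n → ℝ) (hs : ∀ i, 0 < s i) (hr : ∀ i, 0 < r i)
    (τ : ℝ) (hτ : 0 < τ) (h : ∀ i ∈ S, s i ≤ τ * r i) :
    ∃ c : Finset (Fin n → ℝ), (c.card : ℝ) ≤ ∏ i ∈ S, ((1 + τ) * r i / s i) ∧
      (∀ x ∈ c, ∀ i, i ∉ S → x i = 0) ∧
      ∀ a : Fin n → ℝ, ∑ i ∈ S, s i * |a i| ≤ 1 → ∃ x ∈ c, ∑ i ∈ S, r i * |a i - x i| ≤ 2 := by
  classical
  set H : Set (Fin n → ℝ) := Z S r (fun _ => 1) with hH
  set W : Set (Fin n → ℝ) := Z S (fun i => s i / (1 + τ)) (fun _ => 1) with hW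
  set A0 : Set (Fin n → ℝ) := {a | ∑ i ∈ S, s i * |a i| ≤ 1 ∧ ∀ i, i ∉ S → a i = 0} with hA0
  have h1τ : 0 < 1 + τ := by linarith
  have hwW : ∀ i, 0 < s i / (1 + τ) := fun i => div_pos (hs i) h1τ
  have hone : ∀ i : Fin n, (0 : ℝ) < (fun _ => (1 : ℝ)) i := fun _ => one_pos
  have hzero : (0 : Fin n → ℝ) ∈ H := by
    refine ⟨?_, ?_⟩
    · simp
    · intro i _
      simp
  have hAW : ∀ x ∈ A0, (fun y => x + y) '' H ⊆ W := by
    rintro x hx _ ⟨u, hu, rfl⟩
    refine ⟨?_, ?_⟩
    · have e1 : ∑ i ∈ S, s i / (1 + τ) * |(x + u) i| =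
          (∑ i ∈ S, s i * |(x + u) i|) / (1 + τ) := by
        rw [Finset.sum_div]
        apply Finset.sum_congr rfl
        intro i _
        ring
      rw [e1, div_le_one h1τ]
      have e2 : ∑ i ∈ S, s i * |(x + u) i| ≤ ∑ i ∈ S, (s i * |x i| + τ * (r i * |u i|)) := by
        apply Finset.sum_le_sum
        intro i hi
        have habs : |(x + u) i| ≤ |x i| + |u i| := abs_add_le _ _
        have h5 : s i * |u i| ≤ τ * r i * |u i| :=
          mul_le_mul_of_nonneg_right (h i hi) (abs_nonneg _)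
        have h6 : s i * |(x + u) i| ≤ s i * (|x i| + |u i|) :=
          mul_le_mul_of_nonneg_left habs (hs i).le
        nlinarith
      rw [Finset.sum_add_distrib, ← Finset.mul_sum] at e2
      have h7 := hx.1
      have h8 : ∑ i ∈ S, r i * |u i| ≤ 1 := hu.1
      nlinarith
    · intro i hi
      have : (x + u) i = u i := by
        show x i + u i = u i
        rw [hx.2 i hi, zero_add]
      show |(x + u) i| ≤ 1
      rw [this]
      exact hu.2 i hi
  have hmeasH : ∀ x : Fin n → ℝ, MeasurableSet ((fun y => x + y) '' H) := by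
    intro x
    have : (fun y : Fin n → ℝ => x + y) '' H = (fun y => -x + y) ⁻¹' H := Set.image_add_left
    rw [this]
    exact (measurable_const_add (-x)) (measurable_Z S r _)
  set good : Finset (Fin n → ℝ) → Prop := fun c =>
    (∀ x ∈ c, x ∈ A0) ∧ (↑c : Set (Fin n → ℝ)).PairwiseDisjoint (fun x => (fun y => x + y) '' H)
    with hgood
  have bound : ∀ c, good c → (c.card : ℝ) ≤ ∏ i ∈ S, ((1 + τ) * r i / s i) := by
    intro c hc
    have hsub : (⋃ x ∈ c, (fun y => x + y) '' H) ⊆ W := by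
      intro p hp
      simp only [Set.mem_iUnion, exists_prop] at hp
      obtain ⟨x, hx, hp⟩ := hp
      exact hAW x (hc.1 x hx) hp
    have hvol : (c.card : ENNReal) * volume H ≤ volume W := by
      calc (c.card : ENNReal) * volume H = ∑ _x ∈ c, volume H := by
            rw [Finset.sum_const, nsmul_eq_mul]
        _ = ∑ x ∈ c, volume ((fun y => x + y) '' H) := by simp only [vol_translate]
        _ = volume (⋃ x ∈ c, (fun y => x + y) '' H) :=
            (measure_biUnion_finset hc.2 (fun x _ => hmeasH x)).symm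
        _ ≤ volume W := measure_mono hsub
    rw [hH, hW, vol_Z S r _ hr hone, vol_Z S _ _ hwW hone] at hvol
    have hE1 : 0 < ∏ i, ev S r (fun _ => 1) i :=
      Finset.prod_pos (fun i _ => ev_pos S r _ hr hone i)
    have hE2 : 0 < ∏ i, ev S (fun i => s i / (1 + τ)) (fun _ => 1) i :=
      Finset.prod_pos (fun i _ => ev_pos S _ _ hwW hone i)
    have h3 := ofReal_cancel' _ (beta_ne_zero S) (beta_ne_top S) _ _ _ hE1.le hE2.le hvol
    have hq : ∀ i, ev S (fun i => s i / (1 + τ)) (fun _ => 1) i =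
        (if i ∈ S then (1 + τ) * r i / s i else 1) * ev S r (fun _ => 1) i := by
      intro i
      unfold ev
      by_cases hi : i ∈ S
      · simp only [hi, if_true]
        have := (hs i).ne'
        have := (hr i).ne'
        have := h1τ.ne'
        field_simp
      · simp only [hi, if_false, one_mul]
    rw [prod_ratio S _ _ _ hq] at h3
    exact le_of_mul_le_mul_right h3 hE1
  set M : ℕ := ⌊∏ i ∈ S, ((1 + τ) * r i / s i)⌋₊ with hM
  set P : ℕ → Prop := fun k => ∃ c, good c ∧ c.card = k with hP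
  have P0 : P 0 := ⟨∅, ⟨by simp, by simp⟩, rfl⟩
  have Pbd : ∀ k, P k → k ≤ M := by
    rintro k ⟨c, hc, rfl⟩
    exact Nat.le_floor (bound c hc)
  have hk0 : P (Nat.findGreatest P M) := Nat.findGreatest_spec (Nat.zero_le M) P0
  have hmax : ∀ k, P k → k ≤ Nat.findGreatest P M := fun k hk => Nat.le_findGreatest (Pbd k hk) hk
  obtain ⟨c, hc, hcard⟩ := hk0
  have cover : ∀ a ∈ A0, ∃ x ∈ c, ∑ i ∈ S, r i * |a i - x i| ≤ 2 := by
    intro a ha
    by_contra hcon
    have hdis : ∀ x ∈ c, Disjoint ((fun y => a + y) '' H) ((fun y => x + y) '' H) := by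
      intro x hx
      by_contra hnd
      rw [Set.not_disjoint_iff] at hnd
      obtain ⟨p, ⟨u, hu, rfl⟩, ⟨v, hv, hpv⟩⟩ := hnd
      apply hcon
      refine ⟨x, hx, ?_⟩
      have e : ∀ i, a i - x i = v i - u i := by
        intro i
        have := congrFun hpv i
        simp only [Pi.add_apply] at this
        linarith
      have hu1 : ∑ i ∈ S, r i * |u i| ≤ 1 := hu.1
      have hv1 : ∑ i ∈ S, r i * |v i| ≤ 1 := hv.1
      calc ∑ i ∈ S, r i * |a i - x i| ≤ ∑ i ∈ S, (r i * |v i| + r i * |u i|) := by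
            apply Finset.sum_le_sum
            intro i _
            rw [e i, ← mul_add]
            exact mul_le_mul_of_nonneg_left (abs_sub _ _) (hr i).le
        _ = ∑ i ∈ S, r i * |v i| + ∑ i ∈ S, r i * |u i| := Finset.sum_add_distrib
        _ ≤ 2 := by linarith
    have hac : a ∉ c := by
      intro hac
      have := hdis a hac
      rw [disjoint_self] at this
      have h0 : a + 0 ∈ (fun y => a + y) '' H := ⟨0, hzero, rfl⟩
      rw [Set.bot_eq_empty] at this
      rw [this] at h0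
      exact h0
    have hgood' : good (insert a c) := by
      refine ⟨?_, ?_⟩
      · intro x hx
        rcases Finset.mem_insert.1 hx with rfl | hx
        · exact ha
        · exact hc.1 x hx
      · rw [Finset.coe_insert, Set.pairwiseDisjoint_insert]
        exact ⟨hc.2, fun x hx _ => hdis x hx⟩
    have : P (c.card + 1) := ⟨insert a c, hgood', Finset.card_insert_of_notMem hac⟩
    have := hmax _ this
    omega
  refine ⟨c, bound c hc, fun x hx => (hc.1 x hx).2, ?_⟩
  intro a ha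
  have ha' : (fun i => if i ∈ S then a i else 0) ∈ A0 := by
    refine ⟨?_, ?_⟩
    · have e : ∀ i ∈ S, s i * |if i ∈ S then a i else 0| = s i * |a i| := by
        intro i hi
        rw [if_pos hi]
      rw [Finset.sum_congr rfl e]
      exact ha
    · intro i hi
      simp [hi]
  obtain ⟨x, hx, hxa⟩ := cover _ ha'
  refine ⟨x, hx, ?_⟩
  have e : ∀ i ∈ S, r i * |a i - x i| = r i * |(if i ∈ S then a i else 0) - x i| := by
    intro i hi
    rw [if_pos hi]
  rw [Finset.sum_congr rfl e]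
  exact hxa

end Vale.Agent.Lib.P126
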