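import Vale.Agent.Lib.P126.Box

namespace Vale.Agent.Lib.P126

open MeasureTheory

variable {n : ℕ}

/-- Sets given by a weighted sum condition on the coordinates in `S` and box conditions on the
other coordinates. -/
def Z (S : Finset (Fin n)) (w d : Fin n → ℝ) : Set (Fin n → ℝ) :=
  {y | ∑ i ∈ S, w i * |y i| ≤ 1 ∧ ∀ i, i ∉ S → |y i| ≤ d i}

/-- The scaling vector of `Z S w d`. -/
noncomputable def ev (S : Finset (Fin n)) (w d : Fin n → ℝ) : Fin n → ℝ :=
  fun i => if i ∈ S then (w i)⁻¹ else d i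

theorem ev_pos (S : Finset (Fin n)) (w d : Fin n → ℝ) (hw : ∀ i, 0 < w i) (hd : ∀ i, 0 < d i)
    (i : Fin n) : 0 < ev S w d i := by
  unfold ev
  split_ifs
  · exact inv_pos.2 (hw i)
  · exact hd i

theorem Z_eq_image (S : Finset (Fin n)) (w d : Fin n → ℝ) (hw : ∀ i, 0 < w i)
    (hd : ∀ i, 0 < d i) :
    Z S w d = (Matrix.toLin' (Matrix.diagonal (ev S w d))) ''
      Z S (fun _ => 1) (fun _ => 1) := by
  ext y
  constructor
  · intro hy
    refine ⟨fun i => y i / ev S w d i, ⟨?_, ?_⟩, ?_⟩
    · have e : ∀ i ∈ S, (1 : ℝ) * |y i / ev S w d i| = w i * |y i| := by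
        intro i hi
        have : ev S w d i = (w i)⁻¹ := by simp [ev, hi]
        rw [this, one_mul, div_inv_eq_mul, abs_mul, abs_of_pos (hw i), mul_comm]
      rw [Finset.sum_congr rfl e]
      exact hy.1
    · intro i hi
      have : ev S w d i = d i := by simp [ev, hi]
      show |y i / ev S w d i| ≤ 1
      rw [this, abs_div, abs_of_pos (hd i), div_le_one (hd i)]
      exact hy.2 i hi
    · funext i
      rw [Matrix.toLin'_apply, Matrix.mulVec_diagonal]
      have := (ev_pos S w d hw hd i).ne'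
      field_simp
  · rintro ⟨z, hz, rfl⟩
    refine ⟨?_, ?_⟩
    · have e : ∀ i ∈ S, w i * |(Matrix.toLin' (Matrix.diagonal (ev S w d))) z i|
          = (1 : ℝ) * |z i| := by
        intro i hi
        rw [Matrix.toLin'_apply, Matrix.mulVec_diagonal]
        have : ev S w d i = (w i)⁻¹ := by simp [ev, hi]
        rw [this, abs_mul, abs_of_pos (inv_pos.2 (hw i)), ← mul_assoc,
          mul_inv_cancel₀ (hw i).ne']
      rw [Finset.sum_congr rfl e]
      exact hz.1
    · intro i hi
      rw [Matrix.toLin'_apply, Matrix.mulVec_diagonal]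
      have : ev S w d i = d i := by simp [ev, hi]
      rw [this, abs_mul, abs_of_pos (hd i)]
      have := hz.2 i hi
      calc d i * |z i| ≤ d i * 1 := mul_le_mul_of_nonneg_left this (hd i).le
        _ = d i := mul_one _

theorem vol_Z (S : Finset (Fin n)) (w d : Fin n → ℝ) (hw : ∀ i, 0 < w i) (hd : ∀ i, 0 < d i) :
    volume (Z S w d) = ENNReal.ofReal (∏ i, ev S w d i) *
      volume (Z S (fun _ => (1 : ℝ)) (fun _ => (1 : ℝ))) := by
  rw [Z_eq_image S w d hw hd, Measure.addHaar_image_linearMap, LinearMap.det_toLin',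
    Matrix.det_diagonal, abs_of_pos (Finset.prod_pos (fun i _ => ev_pos S w d hw hd i))]

theorem beta_ne_top (S : Finset (Fin n)) :
    volume (Z S (fun _ => (1 : ℝ)) (fun _ => (1 : ℝ))) ≠ ⊤ := by
  have hsub : Z S (fun _ => (1 : ℝ)) (fun _ => (1 : ℝ)) ⊆
      Set.Icc (fun _ => (-1 : ℝ)) (fun _ => (1 : ℝ)) := by
    intro y hy
    have key : ∀ i, |y i| ≤ 1 := by
      intro i
      by_cases hi : i ∈ S
      · have h1 : (1 : ℝ) * |y i| ≤ ∑ j ∈ S, (1 : ℝ) * |y j| :=
          Finset.single_le_sum (f := fun j => (1 : ℝ) * |y j|)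
            (fun j _ => mul_nonneg zero_le_one (abs_nonneg _)) hi
        have h2 := hy.1
        linarith
      · exact hy.2 i hi
    constructor
    · intro i
      exact (abs_le.1 (key i)).1
    · intro i
      exact (abs_le.1 (key i)).2
  refine ne_top_of_le_ne_top ?_ (measure_mono hsub)
  rw [Real.volume_Icc_pi]
  exact ENNReal.prod_ne_top (fun i _ => ENNReal.ofReal_ne_top)

theorem beta_ne_zero (S : Finset (Fin n)) :
    volume (Z S (fun _ => (1 : ℝ)) (fun _ => (1 : ℝ))) ≠ 0 := by
  have hδ : (0 : ℝ) < 1 / ((n : ℝ) + 1) := by positivity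
  have hsub : Set.Icc (fun _ : Fin n => -(1 / ((n : ℝ) + 1))) (fun _ => 1 / ((n : ℝ) + 1)) ⊆
      Z S (fun _ => (1 : ℝ)) (fun _ => (1 : ℝ)) := by
    intro y hy
    have key : ∀ i, |y i| ≤ 1 / ((n : ℝ) + 1) := fun i => abs_le.2 ⟨hy.1 i, hy.2 i⟩
    have hle1 : 1 / ((n : ℝ) + 1) ≤ 1 := by
      rw [div_le_one (by positivity)]
      have : (0 : ℝ) ≤ n := Nat.cast_nonneg n
      linarith
    refine ⟨?_, fun i _ => le_trans (key i) hle1⟩
    calc ∑ i ∈ S, (1 : ℝ) * |y i| ≤ ∑ _i ∈ S, 1 / ((n : ℝ) + 1) := by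
          apply Finset.sum_le_sum
          intro i _
          rw [one_mul]
          exact key i
      _ = S.card * (1 / ((n : ℝ) + 1)) := by rw [Finset.sum_const, nsmul_eq_mul]
      _ ≤ n * (1 / ((n : ℝ) + 1)) := by
          apply mul_le_mul_of_nonneg_right _ hδ.le
          have : S.card ≤ n := by
            have := Finset.card_le_univ S
            simpa using this
          exact_mod_cast this
      _ ≤ 1 := by
          rw [mul_one_div, div_le_one (by positivity)]
          linarith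
  intro h0
  have h1 : volume (Set.Icc (fun _ : Fin n => -(1 / ((n : ℝ) + 1))) (fun _ => 1 / ((n : ℝ) + 1)))
      = 0 := measure_mono_null hsub h0
  rw [Real.volume_Icc_pi] at h1
  rw [Finset.prod_eq_zero_iff] at h1
  obtain ⟨i, _, hi⟩ := h1
  rw [ENNReal.ofReal_eq_zero] at hi
  linarith

theorem measurable_Z (S : Finset (Fin n)) (w d : Fin n → ℝ) : MeasurableSet (Z S w d) := by
  have h1 : MeasurableSet {y : Fin n → ℝ | ∑ i ∈ S, w i * |y i| ≤ 1} := by
    apply measurableSet_le _ measurable_const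
    apply Finset.measurable_sum
    intro i _
    have hm : Measurable (fun y : Fin n → ℝ => |y i|) := (measurable_pi_apply i).abs
    exact hm.const_mul (w i)
  have h2 : MeasurableSet {y : Fin n → ℝ | ∀ i, i ∉ S → |y i| ≤ d i} := by
    have : {y : Fin n → ℝ | ∀ i, i ∉ S → |y i| ≤ d i}
        = ⋂ i, {y : Fin n → ℝ | i ∉ S → |y i| ≤ d i} := by
      ext y; simp
    rw [this]
    apply MeasurableSet.iInter
    intro i
    by_cases hi : i ∈ S
    · have : {y : Fin n → ℝ | i ∉ S → |y i| ≤ d i} = Set.univ := by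
        ext y; simp [hi]
      rw [this]
      exact MeasurableSet.univ
    · have : {y : Fin n → ℝ | i ∉ S → |y i| ≤ d i} = {y : Fin n → ℝ | |y i| ≤ d i} := by
        ext y; simp [hi]
      rw [this]
      have hm : Measurable (fun y : Fin n → ℝ => |y i|) := (measurable_pi_apply i).abs
      exact measurableSet_le hm measurable_const
  exact h1.inter h2

theorem vol_translate (x : Fin n → ℝ) (A : Set (Fin n → ℝ)) :
    volume ((fun y => x + y) '' A) = volume A := by
  rw [Set.image_add_left]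
  exact measure_preimage_add volume (-x) A

theorem prod_ratio (S : Finset (Fin n)) (E1 E2 q : Fin n → ℝ)
    (hq : ∀ i, E1 i = (if i ∈ S then q i else 1) * E2 i) :
    ∏ i, E1 i = (∏ i ∈ S, q i) * ∏ i, E2 i := by
  classical
  rw [Finset.prod_congr rfl (fun i _ => hq i), Finset.prod_mul_distrib, Finset.prod_ite_mem,
    Finset.univ_inter]

end Vale.Agent.Lib.P126
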